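import Vale.Agent.P290.R2.H596.Spec3
import Vale.Agent.P290.Bdl.B2

/-! Volume preserving maps by Hamiltonian flows. -/

open Set Filter Metric
open scoped Manifold ContDiff Topology

namespace Vale.Agent.P290.R2.H455

open Vale.Agent.P290 Vale.Agent.P290.H805 Vale.Agent.P290.R2.H596

theorem area_E : area E1 E2 = 1 := by simp [area, E1, E2]

theorem exists_symp {X C : Type} [TopologicalSpace X] [ChartedSpace C2 X] [T2Space X]
    [CompactSpace X] [IsManifold 𝓘(ℂ, C2) 1 X] (vol : VolForm X)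
    [TopologicalSpace C] [ChartedSpace ℂ C] [T2Space C] [IsManifold 𝓘(ℂ) 1 C] {π : X → C}
    (hπ : MDifferentiable 𝓘(ℂ, C2) 𝓘(ℂ) π) (x : X)
    (hx : fderiv ℂ (hloc π (chartAt ℂ (π x)) (chartAt C2 x)) (chartAt C2 x x) ≠ 0) {R : ℝ}
    (hR : 0 < R) :
    ∃ g : C2 → X, g 0 = x ∧ ∀ y ∈ closedBall (0 : C2) R,
      MDifferentiableAt 𝓘(ℂ, C2) 𝓘(ℂ, C2) g y ∧
        vol.coef (chartAt C2 (g y)) (chartAt C2 (g y) (g y)) *
          (fderiv ℂ (fun z => chartAt C2 (g y) (g z)) y).det = 1 := by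
  have hlc : LocallyCompactSpace C := ChartedSpace.locallyCompactSpace ℂ C
  obtain ⟨t, ht⟩ : ∃ t, t = chartAt ℂ (π x) := ⟨_, rfl⟩
  obtain ⟨e, he⟩ : ∃ e, e = chartAt C2 x := ⟨_, rfl⟩
  rw [← ht, ← he] at hx
  have hta : t ∈ atlas ℂ C := ht ▸ chart_mem_atlas ℂ _
  have hea : e ∈ atlas C2 X := he ▸ chart_mem_atlas C2 _
  have hxs : x ∈ e.source := he ▸ mem_chart_source C2 x
  have hxt : π x ∈ t.source := ht ▸ mem_chart_source ℂ (π x)
  obtain ⟨K, hK, hcK, hKt⟩ := exists_compact_subset t.open_source hxt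
  obtain ⟨φ, hφ⟩ := exists_ham_globF vol hπ hta hK hKt
  -- the direction of the section
  obtain ⟨u₀, hu₀⟩ : ∃ u₀ : C2, fderiv ℂ (hloc π t e) (e x) u₀ = 1 := by
    by_contra h
    push Not at h
    apply hx
    refine ContinuousLinearMap.ext fun u => ?_
    by_contra h1
    apply h ((fderiv ℂ (hloc π t e) (e x) u)⁻¹ • u)
    rw [map_smul, smul_eq_mul, inv_mul_cancel₀]
    simpa using h1
  set l : ℂ → C2 := fun h => e x + h • u₀ with hl
  have hlc : Continuous l := by rw [hl]; fun_prop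
  have hld : Differentiable ℂ l := by rw [hl]; fun_prop
  have hl0 : l 0 = e x := by simp [hl]
  set σ : ℂ → X := fun h => e.symm (l h) with hσ
  set k : ℂ → ℂ := fun h => t (π (σ h)) with hk
  have hex : e x ∈ e.target := e.map_source hxs
  have hσ0 : σ 0 = x := by simp only [hσ, hl0, e.left_inv hxs]
  -- a good disc
  have hO : IsOpen (e.target ∩ e.symm ⁻¹' (π ⁻¹' interior K)) :=
    e.isOpen_inter_preimage_symm (isOpen_interior.preimage hπ.continuous)
  have hO0 : e.target ∩ e.symm ⁻¹' (π ⁻¹' interior K) ∈ 𝓝 (l 0) := by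
    refine hO.mem_nhds ?_
    rw [hl0]
    refine ⟨hex, ?_⟩
    show π (e.symm (e x)) ∈ interior K
    rwa [e.left_inv hxs]
  obtain ⟨r, hr, hrO⟩ := Metric.mem_nhds_iff.1 (hlc.continuousAt.preimage_mem_nhds hO0)
  have hrt : ∀ h ∈ ball (0 : ℂ) r, l h ∈ e.target ∧ π (σ h) ∈ interior K := fun h hh => hrO hh
  have hkd : ∀ h ∈ ball (0 : ℂ) r, DifferentiableAt ℂ (hloc π t e) (l h) := by
    intro h hh
    obtain ⟨h1, h2⟩ := hrt h hh
    exact hloc_diff hπ hta hea h1 (hKt (interior_subset h2))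
  have hkd' : ∀ h ∈ ball (0 : ℂ) r, DifferentiableAt ℂ k h := fun h hh =>
    DifferentiableAt.comp (g := hloc π t e) (f := l) h (hkd h hh) (hld h)
  have hk0 : deriv k 0 = 1 := by
    have h1 : HasDerivAt l ((1 : ℂ) • u₀) 0 :=
      ((hasDerivAt_id (0 : ℂ)).smul_const u₀).const_add (e x)
    rw [one_smul] at h1
    have h2 := (hkd 0 (mem_ball_self hr)).hasFDerivAt.comp_hasDerivAt (0 : ℂ) h1
    rw [hl0, hu₀] at h2
    exact h2.deriv
  have hkk : DifferentiableOn ℂ (deriv k) (ball 0 r) :=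
    DifferentiableOn.deriv (fun h hh => (hkd' h hh).differentiableWithinAt) isOpen_ball
  have hkc : ContinuousAt (deriv k) 0 :=
    (hkk.differentiableAt (isOpen_ball.mem_nhds (mem_ball_self hr))).continuousAt
  obtain ⟨r', hr', hr'k⟩ := Metric.mem_nhds_iff.1
    (hkc.preimage_mem_nhds (isOpen_ne.mem_nhds (by rw [hk0]; exact one_ne_zero :
      deriv k 0 ≠ (0 : ℂ))))
  set r₁ := min r r' with hr₁
  have hr₁0 : 0 < r₁ := lt_min hr hr'
  have hne : ∀ h ∈ ball (0 : ℂ) r₁, deriv k h ≠ 0 := fun h hh =>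
    hr'k (ball_subset_ball (min_le_right _ _) hh)
  have hsub : ball (0 : ℂ) r₁ ⊆ ball 0 r := ball_subset_ball (min_le_left _ _)
  set δ : ℝ := r₁ / (2 * R) with hδ
  have hδ0 : 0 < δ := by positivity
  have hδc : (δ : ℂ) ≠ 0 := by exact_mod_cast hδ0.ne'
  set a : C2 → X := fun z => σ (δ * z.1) with ha
  set b : C2 → ℂ := fun z => -z.2 / (δ * deriv k (δ * z.1)) with hb
  refine ⟨fun z => φ (a z) (b z), ?_, fun z hz => ?_⟩
  · have h1 : a 0 = x := by simp only [ha, Prod.fst_zero, mul_zero, hσ0]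
    have h2 : b 0 = 0 := by simp only [hb, Prod.snd_zero, neg_zero, zero_div]
    simp only [h1, h2]
    exact hφ.zero x (show π x ∈ interior K from hcK)
  have hzb : (δ : ℂ) * z.1 ∈ ball (0 : ℂ) r₁ := by
    rw [mem_ball_zero_iff, norm_mul, Complex.norm_real, Real.norm_of_nonneg hδ0.le]
    rw [mem_closedBall_zero_iff] at hz
    have h1 : ‖z.1‖ ≤ R := (norm_fst_le z).trans hz
    calc δ * ‖z.1‖ ≤ δ * R := mul_le_mul_of_nonneg_left h1 hδ0.le
      _ = r₁ / 2 := by rw [hδ]; field_simp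
      _ < r₁ := by linarith
  have hmem : ∀ h ∈ ball (0 : ℂ) r₁, σ h ∈ π ⁻¹' interior K := fun h hh => (hrt h (hsub hh)).2
  have had : MDifferentiableAt 𝓘(ℂ, C2) 𝓘(ℂ, C2) a z := by
    have h1 := mdifferentiableAt_atlas_symm (I := 𝓘(ℂ, C2)) hea (hrt _ (hsub hzb)).1
    have h2 : DifferentiableAt ℂ (fun z : C2 => l (δ * z.1)) z :=
      DifferentiableAt.comp (g := l) (f := fun z : C2 => (δ : ℂ) * z.1) z (hld _) (by fun_prop)
    exact h1.comp z h2.mdifferentiableAt
  have hkz : DifferentiableAt ℂ (deriv k) (δ * z.1) :=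
    hkk.differentiableAt (isOpen_ball.mem_nhds (hsub hzb))
  have hbd : DifferentiableAt ℂ b z := by
    have h1 : DifferentiableAt ℂ (fun z : C2 => deriv k (δ * z.1)) z :=
      DifferentiableAt.comp (g := deriv k) (f := fun z : C2 => (δ : ℂ) * z.1) z hkz (by fun_prop)
    have h2 : DifferentiableAt ℂ (fun z : C2 => -z.2) z := by fun_prop
    have h3 : DifferentiableAt ℂ (fun z : C2 => (δ : ℂ) * deriv k (δ * z.1)) z := h1.const_mul _
    have h4 : DifferentiableAt ℂ (fun z : C2 => -z.2 * ((δ : ℂ) * deriv k (δ * z.1))⁻¹) z :=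
      h2.mul (h3.inv (mul_ne_zero hδc (hne _ hzb)))
    simpa only [hb, div_eq_mul_inv] using h4
  have hgd := hφ.hol C2 a b z had hbd (hmem _ hzb)
  refine ⟨hgd, ?_⟩
  simp only
  obtain ⟨g, hg⟩ : ∃ g : C2 → X, g = fun z => φ (a z) (b z) := ⟨_, rfl⟩
  have hgz : φ (a z) (b z) = g z := by rw [hg]
  rw [hgz]
  have hgG : (fun z_1 => chartAt C2 (g z) (φ (a z_1) (b z_1))) = fun z' => chartAt C2 (g z) (g z') := by
    rw [hg]
  rw [hgG]
  rw [← hg] at hgd
  obtain ⟨e', he'⟩ : ∃ e', e' = chartAt C2 (g z) := ⟨_, rfl⟩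
  rw [← he']
  have hea' : e' ∈ atlas C2 X := he' ▸ chart_mem_atlas C2 _
  have hs' : g z ∈ e'.source := he' ▸ mem_chart_source C2 (g z)
  have hGd : DifferentiableAt ℂ (fun z' => e' (g z')) z :=
    ((mdifferentiableAt_atlas (I := 𝓘(ℂ, C2)) hea' hs').comp z hgd).differentiableAt
  set D := fderiv ℂ (fun z' => e' (g z')) z with hD
  have hgK : g z ∈ π ⁻¹' interior K := by rw [← hgz]; exact hφ.mem _ (hmem _ hzb) _
  have hyt : e' (g z) ∈ e'.target := e'.map_source hs'
  have hh : DifferentiableAt ℂ (hloc π t e') (e' (g z)) :=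
    hloc_diff hπ hta hea' hyt (by rw [e'.left_inv hs']; exact hKt (interior_subset hgK))
  set c : ℂ := -1 / (δ * deriv k (δ * z.1)) with hc
  -- the derivative in the second variable
  have e2 : D E2 = c • ham vol π t e' (e' (g z)) := by
    have h1 : HasDerivAt (fun s : ℂ => ((z.1, s) : C2)) E2 z.2 :=
      (hasDerivAt_const z.2 z.1).prodMk (hasDerivAt_id z.2)
    have h2 : HasDerivAt (fun s : ℂ => e' (g (z.1, s))) (D E2) z.2 :=
      HasFDerivAt.comp_hasDerivAt (l := fun z' => e' (g z')) (f := fun s : ℂ => ((z.1, s) : C2))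
        z.2 hGd.hasFDerivAt h1
    have h3 := (hφ.ic (a z) (hmem _ hzb) (b z)).2.2 e' hea' (by rw [hgz]; exact hs')
    rw [hgz] at h3
    have h4 : HasDerivAt (fun s : ℂ => s * c) c z.2 := by
      simpa using (hasDerivAt_id z.2).mul_const c
    have h5 : z.2 * c = b z := by rw [hc, hb]; ring
    have h6 : HasDerivAt (fun s : ℂ => e' (φ (a z) (s * c))) (c • ham vol π t e' (e' (g z))) z.2 :=
      HasDerivAt.scomp z.2 (g₁ := fun s => e' (φ (a z) s)) (h := fun s : ℂ => s * c)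
        (by rw [h5]; exact h3) h4
    have h7 : (fun s : ℂ => e' (g (z.1, s))) = fun s : ℂ => e' (φ (a z) (s * c)) := by
      funext s
      rw [hg]
      have h8 : a (z.1, s) = a z := rfl
      have h9 : b (z.1, s) = s * c := by rw [hc, hb]; ring
      simp only [h8, h9]
    rw [h7] at h2
    exact h2.unique h6
  -- the derivative in the first variable
  have e1 : fderiv ℂ (hloc π t e') (e' (g z)) (D E1) = δ * deriv k (δ * z.1) := by
    have h1 : HasDerivAt (fun s : ℂ => ((s, z.2) : C2)) E1 z.1 :=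
      (hasDerivAt_id z.1).prodMk (hasDerivAt_const z.1 z.2)
    have h2 : HasDerivAt (fun s : ℂ => e' (g (s, z.2))) (D E1) z.1 :=
      HasFDerivAt.comp_hasDerivAt (l := fun z' => e' (g z')) (f := fun s : ℂ => ((s, z.2) : C2))
        z.1 hGd.hasFDerivAt h1
    have h3 : HasDerivAt (fun s : ℂ => hloc π t e' (e' (g (s, z.2))))
        (fderiv ℂ (hloc π t e') (e' (g z)) (D E1)) z.1 :=
      HasFDerivAt.comp_hasDerivAt (l := hloc π t e') (f := fun s : ℂ => e' (g (s, z.2)))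
        z.1 hh.hasFDerivAt h2
    have h4 : HasDerivAt (fun s : ℂ => (δ : ℂ) * s) δ z.1 := by
      simpa using (hasDerivAt_id z.1).const_mul (δ : ℂ)
    have h5 : HasDerivAt (fun s : ℂ => k (δ * s)) (deriv k (δ * z.1) * δ) z.1 :=
      HasDerivAt.comp z.1 (h₂ := k) (h := fun s : ℂ => (δ : ℂ) * s)
        (hkd' _ (hsub hzb)).hasDerivAt h4
    have h6 : (fun s : ℂ => hloc π t e' (e' (g (s, z.2)))) =ᶠ[𝓝 z.1] fun s => k (δ * s) := by
      have c1 : Continuous fun s : ℂ => (δ : ℂ) * s := by fun_prop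
      have c2 : Continuous fun s : ℂ => ((s, z.2) : C2) := by fun_prop
      have h7 : ∀ᶠ s in 𝓝 z.1, (δ : ℂ) * s ∈ ball (0 : ℂ) r₁ :=
        c1.continuousAt.preimage_mem_nhds (isOpen_ball.mem_nhds hzb)
      have h8 : ContinuousAt (fun s : ℂ => g (s, z.2)) z.1 :=
        ContinuousAt.comp (g := g) (f := fun s : ℂ => ((s, z.2) : C2)) hgd.continuousAt
          c2.continuousAt
      have h9 : ∀ᶠ s in 𝓝 z.1, g (s, z.2) ∈ e'.source :=
        h8.preimage_mem_nhds (e'.open_source.mem_nhds hs')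
      filter_upwards [h7, h9] with s h10 h11
      simp only [hloc, e'.left_inv h11]
      have h12 : g (s, z.2) = φ (σ (δ * s)) (b (s, z.2)) := by rw [hg]
      rw [h12, hφ.pi_eq vol hπ hta (hmem _ h10)]
    have h13 := (h5.congr_of_eventuallyEq h6)
    rw [h3.unique h13, mul_comm]
  have e3 := ham_spec vol (π := π) (t := t) (vol.ne_zero e' hea' _ hyt) (D E1)
  rw [e1] at e3
  have e4 : D.det = area (D E1) (D E2) := by rw [area_map, area_E, mul_one]
  have hne' : (δ : ℂ) * deriv k (δ * z.1) ≠ 0 := mul_ne_zero hδc (hne _ hzb)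
  rw [e4, e2, area_smul_right, area_swap]
  calc vol.coef e' (e' (g z)) * (c * -area (ham vol π t e' (e' (g z))) (D E1))
      = -c * (vol.coef e' (e' (g z)) * area (ham vol π t e' (e' (g z))) (D E1)) := by ring
    _ = 1 := by
      rw [e3, hc, neg_div, neg_neg, one_div, inv_mul_cancel₀ hne']

end Vale.Agent.P290.R2.H455
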