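import Vale.Agent.P290.R2.H455.TubeY

/-! Moving the values of a map on a face of a compact convex set. -/

open Set Filter Metric
open scoped Topology NNReal ContDiff

namespace Vale.Agent.P290.R2.H455

open Vale.Agent.P290 Vale.Agent.P290.All Vale.Agent.P290.K Vale.Agent.P290.H580
open Vale.Agent.P290.H805 Vale.Agent.P290.R2.H596

/-- the points of a compact set at which a function is nearly maximal are near the maximum set -/
theorem exists_face {V : Type} [TopologicalSpace V] {K : Set V} (hK : IsCompact K) {f : V → ℝ}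
    (hf : Continuous f) (h1 : ∀ z ∈ K, f z ≤ 1) {U : Set V} (hU : ∀ z ∈ K, f z = 1 → U ∈ 𝓝 z) :
    ∃ η > (0 : ℝ), ∀ z ∈ K, 1 - η ≤ f z → z ∈ U := by
  have hc : IsCompact (K \ interior U) := hK.diff isOpen_interior
  rcases (K \ interior U).eq_empty_or_nonempty with he | hne
  · refine ⟨1, one_pos, fun z hz _ => ?_⟩
    by_contra h
    have h2 : z ∈ K \ interior U := ⟨hz, fun h' => h (interior_subset h')⟩
    rw [he] at h2
    exact h2
  · obtain ⟨m, hm, hmax⟩ := hc.exists_isMaxOn hne hf.continuousOn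
    have hm1 : f m < 1 :=
      lt_of_le_of_ne (h1 m hm.1) fun h => hm.2 (mem_interior_iff_mem_nhds.2 (hU m hm.1 h))
    refine ⟨(1 - f m) / 2, by linarith, fun z hz hfz => ?_⟩
    by_contra h
    have h2 : f z ≤ f m := hmax (⟨hz, fun h' => h (interior_subset h')⟩ : z ∈ K \ interior U)
    linarith

theorem exists_exp_le {a b : ℝ} (ha : 0 < a) (hb : 0 < b) :
    ∃ M : ℝ, 0 ≤ M ∧ Real.exp (M * (-a)) ≤ b := by
  refine ⟨max 0 (-Real.log b / a), le_max_left _ _, ?_⟩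
  rw [← Real.le_log_iff_exp_le hb]
  have h1 : -Real.log b / a ≤ max 0 (-Real.log b / a) := le_max_right _ _
  rw [div_le_iff₀ ha] at h1
  linarith

variable {T E : Type} [TopologicalSpace T] [TopologicalSpace E] {F : Family T E}
variable {V : Type} [NormedAddCommGroup V] [NormedSpace ℂ V] {t₀ : T}

/-- the set where the homotopy stays in the chart -/
def Sg (F : Family T E) (t₀ : T) (g : V → E) (y : E) (h : V → C2) : Set (V × C2) :=
  {q | ∀ s ∈ closedBall (0 : ℂ) 1,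
    (t₀, (1 - s) • ((F.triv y (g q.1)).2 + q.2) + s • h q.1) ∈ (F.triv y).target}

theorem Sg_mem {g : V → E} {y : E} {h : V → C2} (hh : Differentiable ℂ h) {z : V}
    (hg : FH F t₀ g z) (hs : g z ∈ (F.triv y).source)
    (ht : ∀ s : ℂ, ‖s‖ ≤ 1 →
      (t₀, (1 - s) • (F.triv y (g z)).2 + s • h z) ∈ (F.triv y).target) :
    Sg F t₀ g y h ∈ 𝓝 (z, (0 : C2)) := by
  have key : ∀ᶠ q : V × C2 in 𝓝 (z, (0 : C2)), ∀ s ∈ closedBall (0 : ℂ) 1,
      (t₀, (1 - s) • ((F.triv y (g q.1)).2 + q.2) + s • h q.1) ∈ (F.triv y).target := by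
    refine (isCompact_closedBall (0 : ℂ) 1).eventually_forall_of_forall_eventually fun s hs' => ?_
    have hY : ContinuousAt (fun x : (V × C2) × ℂ => (F.triv y (g x.1.1)).2) ((z, 0), s) :=
      ContinuousAt.comp (g := fun z => (F.triv y (g z)).2) (f := fun x : (V × C2) × ℂ => x.1.1)
        (x := ((z, 0), s)) (hg.diff hs).continuousAt
        (continuous_fst.comp continuous_fst).continuousAt
    have hhc : Continuous fun x : (V × C2) × ℂ => h x.1.1 :=
      hh.continuous.comp (continuous_fst.comp continuous_fst)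
    have h1 : Continuous fun x : (V × C2) × ℂ => (1 - x.2 : ℂ) := by fun_prop
    have h2 : Continuous fun x : (V × C2) × ℂ => x.1.2 := by fun_prop
    have hc : ContinuousAt (fun x : (V × C2) × ℂ =>
        ((t₀, (1 - x.2) • ((F.triv y (g x.1.1)).2 + x.1.2) + x.2 • h x.1.1) : T × C2))
        ((z, 0), s) :=
      continuousAt_const.prodMk ((h1.continuousAt.smul (hY.add h2.continuousAt)).add
        (continuous_snd.smul hhc).continuousAt)
    refine hc.eventually ((F.triv y).open_target.mem_nhds ?_)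
    simpa using ht s (by simpa using hs')
  exact key

/-- a small displacement in the chart `j₀` is a small displacement in all the coordinates -/
theorem cl_move (D : Tube F V t₀) {δ r : ℝ} (hr : 0 < r) (j₀ : D.J) {z : V} (hz : z ∈ D.N j₀)
    (hest : ∀ w : C2, ‖w‖ ≤ 2 → D.Cl (δ / 2) r (z, w) (D.P j₀ r t₀ z w)) {w : C2} (hw : ‖w‖ ≤ 1)
    (a : ℂ) (b : C2)
    (h1 : ‖((r⁻¹ : ℝ) : ℂ) • a • D.ζ j₀ z (b - (D.c j₀ z + (r : ℂ) • D.η j₀ z w))‖ ≤ δ / 2)
    (h2 : ‖((r⁻¹ : ℝ) : ℂ) • a • D.ζ j₀ z (b - (D.c j₀ z + (r : ℂ) • D.η j₀ z w))‖ ≤ 1) :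
    D.Cl δ r (z, w) ((F.triv (D.x j₀)).symm
      (t₀, (1 - a) • (D.c j₀ z + (r : ℂ) • D.η j₀ z w) + a • b)) := by
  set w' := ((r⁻¹ : ℝ) : ℂ) • a • D.ζ j₀ z (b - (D.c j₀ z + (r : ℂ) • D.η j₀ z w)) with hw'
  have e4 : (r : ℂ) * ((r⁻¹ : ℝ) : ℂ) = 1 := by
    rw [← Complex.ofReal_mul, mul_inv_cancel₀ hr.ne', Complex.ofReal_one]
  have e1 : (r : ℂ) • D.η j₀ z w' = a • (b - (D.c j₀ z + (r : ℂ) • D.η j₀ z w)) := by
    rw [hw', map_smul, map_smul, D.ηζ j₀ z (D.sub j₀ hz), smul_smul, e4, one_smul]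
  have e2 : (1 - a) • (D.c j₀ z + (r : ℂ) • D.η j₀ z w) + a • b =
      D.c j₀ z + (r : ℂ) • D.η j₀ z (w + w') := by
    have e6 : (r : ℂ) • D.η j₀ z (w + w') = (r : ℂ) • D.η j₀ z w + (r : ℂ) • D.η j₀ z w' := by
      rw [map_add, smul_add]
    rw [e6, e1]
    module
  have e3 := hest (w + w') ((norm_add_le _ _).trans (by linarith))
  rw [e2]
  intro j hj
  obtain ⟨h3, h4⟩ := e3 j hj
  refine ⟨h3, ?_⟩
  simp only at h4 ⊢
  have e5 : D.k j r z (D.P j₀ r t₀ z (w + w')) - w =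
      (D.k j r z (D.P j₀ r t₀ z (w + w')) - (w + w')) + w' := by abel
  have e6 : ‖D.k j r z (D.P j₀ r t₀ z (w + w')) - w‖ < δ := by
    rw [e5]
    refine (norm_add_le _ _).trans_lt ?_
    linarith
  exact e6

theorem cl_mono (D : Tube F V t₀) {ε δ r : ℝ} (h : ε ≤ δ) {q : V × C2} {x : E}
    (hx : D.Cl ε r q x) : D.Cl δ r q x := fun j hj => ⟨(hx j hj).1, (hx j hj).2.trans_le h⟩

theorem move (hG : StMerge) (hT : StTube) (hN : StNear) : StMove := by
  intro T E _ _ F V _ _ _ t₀ K hK g hg ℓ hℓ y h hh hsrc htgt η hη 𝒪 h𝒪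
  have : ProperSpace V := FiniteDimensional.proper ℂ V
  have hℓc : Continuous fun z => (ℓ z).re := Complex.continuous_re.comp ℓ.continuous
  have hlin : IsLinearMap ℝ fun z => (ℓ z).re :=
    ((Complex.reCLM.comp (ℓ.restrictScalars ℝ) : V →L[ℝ] ℝ) : V →ₗ[ℝ] ℝ).isLinear
  obtain ⟨η₀, hη₀, hface⟩ := exists_face hK.1 hℓc hℓ
    (U := {z | g z ∈ (F.triv y).source ∧ Sg F t₀ g y h ∈ 𝓝 (z, (0 : C2))}) (by
      intro z hz h1
      have e0 := hg.self_of_nhdsSet z hz
      have e1 : ∀ᶠ z' in 𝓝 z, g z' ∈ (F.triv y).source := e0.eventually_source (hsrc z hz h1)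
      have e2 : ∀ᶠ q in 𝓝 (z, (0 : C2)), Sg F t₀ g y h ∈ 𝓝 q :=
        eventually_mem_nhds_iff.2 (Sg_mem hh e0 (hsrc z hz h1) (htgt z hz h1))
      have hc : Continuous fun z' : V => (z', (0 : C2)) := by fun_prop
      have e3 : ∀ᶠ z' in 𝓝 z, Sg F t₀ g y h ∈ 𝓝 (z', (0 : C2)) := (hc.tendsto z).eventually e2
      filter_upwards [e1, e3] with z' h1 h2 using ⟨h1, h2⟩)
  set η₂ : ℝ := min η₀ η with hη₂
  have hη₂0 : 0 < η₂ := lt_min hη₀ hη
  have hη₂1 : η₂ ≤ η₀ := min_le_left _ _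
  have hη₂2 : η₂ ≤ η := min_le_right _ _
  set KB : Set V := K ∩ {z | 1 - η₂ ≤ (ℓ z).re} with hKBd
  set KA : Set V := K ∩ {z | (ℓ z).re ≤ 1 - η₂ / 2} with hKAd
  have hKB : Good KB := ⟨hK.1.inter_right (isClosed_le continuous_const hℓc),
    hK.2.inter (convex_halfSpace_ge hlin _)⟩
  have hKA : Good KA := ⟨hK.1.inter_right (isClosed_le hℓc continuous_const),
    hK.2.inter (convex_halfSpace_le hlin _)⟩
  have hfB : ∀ z ∈ KB, g z ∈ (F.triv y).source ∧ Sg F t₀ g y h ∈ 𝓝 (z, (0 : C2)) := by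
    intro z hz
    have h1 : 1 - η₂ ≤ (ℓ z).re := hz.2
    exact hface z hz.1 (by linarith)
  obtain ⟨D, j₀, rfl, rfl, hDN, hDN'⟩ := exists_tubeY hK hg y hKB.1 inter_subset_left
    (fun z hz => (hfB z hz).1)
  obtain ⟨τ, hτ, hτK⟩ := hK.1.exists_cthickening_subset_open
    (isOpen_iUnion fun j => isOpen_interior) hDN
  have hKp : Good (cthickening τ K) := ⟨hK.1.cthickening, hK.2.cthickening τ⟩
  obtain ⟨σ, hσ, hσS⟩ : ∃ σ > (0 : ℝ), ∀ z ∈ KB, ∀ (z' : V) (κ : C2), dist z' z ≤ σ → ‖κ‖ ≤ σ →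
      (z', κ) ∈ Sg F t₀ D.u₀ (D.x j₀) h := by
    have hc : IsCompact (KB ×ˢ {(0 : C2)}) := hKB.1.prod isCompact_singleton
    obtain ⟨σ, hσ, hs⟩ := hc.exists_cthickening_subset_open
      (t := interior (Sg F t₀ D.u₀ (D.x j₀) h)) isOpen_interior (by
        rintro ⟨z, w⟩ ⟨hz, hw⟩
        rw [mem_singleton_iff] at hw
        simp only at hz hw
        subst hw
        exact mem_interior_iff_mem_nhds.2 (hfB z hz).2)
    refine ⟨σ, hσ, fun z hz z' κ h1 h2 => interior_subset (hs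
      (mem_cthickening_of_dist_le (z', κ) (z, 0) σ _ ⟨hz, rfl⟩ ?_))⟩
    rw [Prod.dist_eq]
    exact max_le h1 (by simpa using h2)
  set W : Set V := (interior (D.N j₀) ∩ thickening σ KB) ∩
    (thickening τ K ∩ {z | (ℓ z).re < 1 - η₂ / 4}) with hW
  have hWo : IsOpen W := (isOpen_interior.inter isOpen_thickening).inter
    (isOpen_thickening.inter (isOpen_lt hℓc continuous_const))
  set O : Set (V × C2) := W ×ˢ ball (0 : C2) (1 / 2) with hO
  have hABO : (KA ×ˢ {(0 : C2)}) ∩ (KB ×ˢ {(0 : C2)}) ⊆ O := by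
    rintro ⟨z, w⟩ ⟨⟨hzA, hw⟩, ⟨hzB, -⟩⟩
    rw [mem_singleton_iff] at hw
    simp only at hzA hzB hw
    subst hw
    refine ⟨⟨⟨hDN' hzB, self_subset_thickening hσ _ hzB⟩,
      ⟨self_subset_thickening hτ _ hzA.1, ?_⟩⟩, mem_ball_self (by norm_num)⟩
    have h1 : (ℓ z).re ≤ 1 - η₂ / 2 := hzA.2
    show (ℓ z).re < 1 - η₂ / 4
    linarith
  have hAB : KA ∪ KB = K := by
    apply Subset.antisymm (union_subset inter_subset_left inter_subset_left)
    intro z hz
    rcases le_total (ℓ z).re (1 - η₂ / 2) with h1 | h1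
    · exact Or.inl ⟨hz, h1⟩
    · refine Or.inr ⟨hz, ?_⟩
      show 1 - η₂ ≤ (ℓ z).re
      linarith
  have hABp : (KA ×ˢ {(0 : C2)}) ∪ (KB ×ˢ {(0 : C2)}) = K ×ˢ {(0 : C2)} := by
    rw [← union_prod, hAB]
  obtain ⟨δ, hδ, hmerge⟩ := hG T E F V t₀ D (KA ×ˢ {(0 : C2)}) (KB ×ˢ {(0 : C2)}) O
    ⟨hKA.1.prod isCompact_singleton, hKA.2.prod (convex_singleton _)⟩
    ⟨hKB.1.prod isCompact_singleton, hKB.2.prod (convex_singleton _)⟩
    (by rw [hABp]; exact hK.2.prod (convex_singleton _)) (hWo.prod isOpen_ball) hABO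
    (fun q hq => ⟨j₀, interior_subset hq.1.1.1⟩) (1 / 2) (by norm_num) 1 one_pos
  obtain ⟨ρ, hρ, hadm⟩ := D.exists_adm
  obtain ⟨L, hL, hLb⟩ := D.exists_bound
  obtain ⟨r₀, hr₀, hest⟩ := D.exists_est hρ (half_pos hδ)
  obtain ⟨r₁, hr₁, htube⟩ := hT T E F V t₀ D (cthickening τ K) hKp hτK (min δ 1)
    (lt_min hδ one_pos)
  obtain ⟨r₂, hr₂, hnear⟩ := hN T E F V t₀ D K hK.1 hDN 𝒪 h𝒪
  obtain ⟨r, hr, hrr₀, hrr₁, hrr₂, hrσ⟩ : ∃ r : ℝ, 0 < r ∧ r < r₀ ∧ r < r₁ ∧ r < r₂ ∧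
      r * L ≤ σ := by
    have h1 : 0 < min (min r₀ r₁) (min r₂ (σ / L)) := by positivity
    refine ⟨min (min r₀ r₁) (min r₂ (σ / L)) / 2, by positivity, ?_, ?_, ?_, ?_⟩
    · have := (min_le_left (min r₀ r₁) (min r₂ (σ / L))).trans (min_le_left _ _)
      linarith
    · have := (min_le_left (min r₀ r₁) (min r₂ (σ / L))).trans (min_le_right _ _)
      linarith
    · have := (min_le_right (min r₀ r₁) (min r₂ (σ / L))).trans (min_le_left _ _)
      linarith
    · have h2 := (min_le_right (min r₀ r₁) (min r₂ (σ / L))).trans (min_le_right _ _)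
      rw [← le_div_iff₀ hL]
      linarith
  obtain ⟨u, hu1, hu2⟩ := htube r hr hrr₁
  have hA0 : D.Adm ρ r t₀ := (hadm r hr).self_of_nhds
  -- bounds
  obtain ⟨H, hH⟩ := (D.compact j₀).exists_bound_of_continuousOn
    (f := fun z => h z - D.c j₀ z) fun z hz =>
      (hh.continuous.continuousAt.sub (D.c_diff (D.sub j₀ hz)).continuousAt).continuousWithinAt
  obtain ⟨M, hM, hMb⟩ := exists_exp_le (a := η₂ / 4)
    (b := min (δ / 2) 1 / (r⁻¹ * (L * (max H 0 + r * L)))) (by positivity) (by positivity)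
  set s : V → ℂ := fun z => Complex.exp ((M : ℂ) * (ℓ z - 1)) with hs
  have hsn : ∀ z, ‖s z‖ = Real.exp (M * ((ℓ z).re - 1)) := by
    intro z
    rw [hs, Complex.norm_exp]
    simp
  have hsd : Differentiable ℂ s := by
    rw [hs]
    fun_prop
  have hs1 : ∀ z, (ℓ z).re ≤ 1 → ‖s z‖ ≤ 1 := by
    intro z hz
    rw [hsn, Real.exp_le_one_iff]
    exact mul_nonpos_of_nonneg_of_nonpos hM (by linarith)
  set c' : V × C2 → C2 := fun q =>
    (1 - s q.1) • (D.c j₀ q.1 + (r : ℂ) • D.η j₀ q.1 q.2) + s q.1 • h q.1 with hc'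
  have hc'd : ∀ q : V × C2, q.1 ∈ D.O j₀ → DifferentiableAt ℂ c' q := by
    intro q hq
    have e1 : DifferentiableAt ℂ (fun y : V × C2 => D.c j₀ y.1) q :=
      DifferentiableAt.comp (g := D.c j₀) (f := fun y : V × C2 => y.1) q (D.c_diff hq)
        (by fun_prop)
    have e2 : DifferentiableAt ℂ (fun y : V × C2 => D.η j₀ y.1) q :=
      DifferentiableAt.comp (g := D.η j₀) (f := fun y : V × C2 => y.1) q (D.η_diff j₀ _ hq)
        (by fun_prop)
    have e3 : DifferentiableAt ℂ (fun y : V × C2 => D.η j₀ y.1 y.2) q :=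
      e2.clm_apply (by fun_prop)
    have e4 : DifferentiableAt ℂ (fun y : V × C2 => s y.1) q :=
      DifferentiableAt.comp (g := s) (f := fun y : V × C2 => y.1) q (hsd _) (by fun_prop)
    have e5 : DifferentiableAt ℂ (fun y : V × C2 => h y.1) q :=
      DifferentiableAt.comp (g := h) (f := fun y : V × C2 => y.1) q (hh _) (by fun_prop)
    have e6 : DifferentiableAt ℂ (fun y : V × C2 => (1 : ℂ) - s y.1) q :=
      (differentiableAt_const _).sub e4
    exact (e6.smul (e1.add (DifferentiableAt.const_smul e3 (r : ℂ)))).add (e4.smul e5)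
  set u' : V × C2 → E := fun q => (F.triv (D.x j₀)).symm (t₀, c' q) with hu'
  -- the map `u'` is holomorphic near the points whose value is in the chart
  have hFH : ∀ q : V × C2, q.1 ∈ D.N j₀ → (∃ z ∈ KB, dist q.1 z ≤ σ) → (ℓ q.1).re ≤ 1 →
      ‖q.2‖ < 1 / 2 → ∀ᶠ q' in 𝓝 q, FH F t₀ u' q' := by
    intro q hq hz hre hw
    obtain ⟨z, hzB, hzd⟩ := hz
    have hqO := D.sub j₀ hq
    have h1 : ‖(r : ℂ) • D.η j₀ q.1 q.2‖ ≤ σ := by
      rw [norm_smul, Complex.norm_real, Real.norm_of_nonneg hr.le]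
      have h2 : ‖D.η j₀ q.1 q.2‖ ≤ L * 1 := (ContinuousLinearMap.le_opNorm _ _).trans
        (mul_le_mul (hLb j₀ _ hq).1 (by linarith) (norm_nonneg _) hL.le)
      calc r * ‖D.η j₀ q.1 q.2‖ ≤ r * (L * 1) := mul_le_mul_of_nonneg_left h2 hr.le
        _ = r * L := by ring
        _ ≤ σ := hrσ
    have h2 : (t₀, c' q) ∈ (F.triv (D.x j₀)).target :=
      hσS z hzB q.1 _ hzd h1 (s q.1) (by simpa using hs1 _ hre)
    have h3 : ContinuousAt (fun q' => ((t₀, c' q') : T × C2)) q :=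
      continuousAt_const.prodMk (hc'd q hqO).continuousAt
    have h4 : ∀ᶠ q' in 𝓝 q, (t₀, c' q') ∈ (F.triv (D.x j₀)).target :=
      h3.eventually ((F.triv (D.x j₀)).open_target.mem_nhds h2)
    have h5 : ∀ᶠ q' : V × C2 in 𝓝 q, q'.1 ∈ D.O j₀ :=
      (continuous_fst.tendsto q).eventually ((D.isOpen j₀).mem_nhds hqO)
    filter_upwards [h4, h5] with q' h6 h7
    exact FH.mk_symm (v := c') (hc'd q' h7) h6
  obtain ⟨v, hv1, hv2, hv3⟩ := hmerge r t₀ (O ∪ KA ×ˢ ball (0 : C2) (1 / 2))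
    (O ∪ KB ×ˢ ball (0 : C2) (1 / 2)) u u' hr subset_union_left subset_union_left
    (by
      rintro ⟨z, w⟩ ⟨hz, hw⟩ c hc
      rw [mem_singleton_iff] at hw
      simp only at hz hw
      subst hw
      refine Or.inr ⟨hz, ?_⟩
      simpa [sh] using hc)
    (by
      rintro ⟨z, w⟩ ⟨hz, hw⟩ c hc
      rw [mem_singleton_iff] at hw
      simp only at hz hw
      subst hw
      refine Or.inr ⟨hz, ?_⟩
      simpa [sh] using hc)
    (by
      refine hu1.filter_mono (nhdsSet_mono ?_)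
      rintro ⟨z, w⟩ (⟨hz, hw⟩ | ⟨hz, hw⟩)
      · exact ⟨thickening_subset_cthickening _ _ hz.2.1,
          (ball_subset_closedBall.trans (closedBall_subset_closedBall (by norm_num))) hw⟩
      · exact ⟨self_subset_cthickening _ hz.1,
          (ball_subset_closedBall.trans (closedBall_subset_closedBall (by norm_num))) hw⟩)
    (by
      rw [eventually_nhdsSet_iff_forall]
      rintro ⟨z, w⟩ (⟨hz, hw⟩ | ⟨hz, hw⟩)
      · obtain ⟨z₁, hz₁, hd⟩ := mem_thickening_iff.1 hz.1.2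
        refine hFH (z, w) (interior_subset hz.1.1) ⟨z₁, hz₁, hd.le⟩ ?_
          (by simpa using mem_ball_zero_iff.1 hw)
        have h1 : (ℓ z).re < 1 - η₂ / 4 := hz.2.2
        simp only
        linarith
      · exact hFH (z, w) (interior_subset (hDN' hz)) ⟨z, hz, by simpa using hσ.le⟩ (hℓ z hz.1)
          (by simpa using mem_ball_zero_iff.1 hw))
    (by
      rintro ⟨z, w⟩ ⟨hz, hw⟩
      refine cl_mono D (min_le_left δ 1) (hu2 (z, w) ⟨thickening_subset_cthickening _ _ hz.2.1,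
        (ball_subset_closedBall.trans (closedBall_subset_closedBall (by norm_num))) hw⟩))
    (by
      rintro ⟨z, w⟩ ⟨hz, hw⟩
      have hzN : z ∈ D.N j₀ := interior_subset hz.1.1
      have hw1 : ‖w‖ < 1 / 2 := by simpa using mem_ball_zero_iff.1 hw
      have hre : (ℓ z).re < 1 - η₂ / 4 := hz.2.2
      have hsz : ‖s z‖ ≤ min (δ / 2) 1 / (r⁻¹ * (L * (max H 0 + r * L))) := by
        rw [hsn]
        refine (Real.exp_le_exp.2 ?_).trans hMb
        exact mul_le_mul_of_nonneg_left (by linarith) hM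
      have hb : ‖h z - (D.c j₀ z + (r : ℂ) • D.η j₀ z w)‖ ≤ max H 0 + r * L := by
        have e1 : h z - (D.c j₀ z + (r : ℂ) • D.η j₀ z w) =
            (h z - D.c j₀ z) - (r : ℂ) • D.η j₀ z w := by abel
        rw [e1]
        refine (norm_sub_le _ _).trans (add_le_add ((hH z hzN).trans (le_max_left _ _)) ?_)
        rw [norm_smul, Complex.norm_real, Real.norm_of_nonneg hr.le]
        have h2 : ‖D.η j₀ z w‖ ≤ L * 1 := (ContinuousLinearMap.le_opNorm _ _).trans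
          (mul_le_mul (hLb j₀ _ hzN).1 (by linarith) (norm_nonneg _) hL.le)
        calc r * ‖D.η j₀ z w‖ ≤ r * (L * 1) := mul_le_mul_of_nonneg_left h2 hr.le
          _ = r * L := by ring
      have hw' : ‖((r⁻¹ : ℝ) : ℂ) • s z • D.ζ j₀ z
          (h z - (D.c j₀ z + (r : ℂ) • D.η j₀ z w))‖ ≤ min (δ / 2) 1 := by
        rw [norm_smul, norm_smul, Complex.norm_real, Real.norm_of_nonneg (inv_nonneg.2 hr.le)]
        have h2 : ‖D.ζ j₀ z (h z - (D.c j₀ z + (r : ℂ) • D.η j₀ z w))‖ ≤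
            L * (max H 0 + r * L) := (ContinuousLinearMap.le_opNorm _ _).trans
          (mul_le_mul (hLb j₀ _ hzN).2 hb (norm_nonneg _) hL.le)
        have h3 : 0 < r⁻¹ * (L * (max H 0 + r * L)) := by positivity
        calc r⁻¹ * (‖s z‖ * ‖D.ζ j₀ z (h z - (D.c j₀ z + (r : ℂ) • D.η j₀ z w))‖)
            ≤ r⁻¹ * (min (δ / 2) 1 / (r⁻¹ * (L * (max H 0 + r * L))) *
                (L * (max H 0 + r * L))) := by
              refine mul_le_mul_of_nonneg_left ?_ (inv_nonneg.2 hr.le)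
              exact mul_le_mul hsz h2 (norm_nonneg _) (by positivity)
          _ = min (δ / 2) 1 := by
              field_simp
      exact cl_move D hr j₀ hzN (fun w hw => (hest r hrr₀ t₀ hA0 j₀ z hzN w hw).2) (by linarith)
        (s z) (h z) (hw'.trans (min_le_left _ _)) (hw'.trans (min_le_right _ _)))
  rw [hABp] at hv1
  have hc0 : Continuous fun z : V => ((z, 0) : V × C2) := by fun_prop
  have hv4 : ∀ᶠ z in 𝓝ˢ K, FH F t₀ (fun z => v (z, 0)) z := by
    rw [eventually_nhdsSet_iff_forall]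
    intro z hz
    have h3 : ∀ᶠ y in 𝓝 ((z, 0) : V × C2), FH F t₀ v y :=
      (eventually_nhdsSet_iff_forall.1 hv1) _ ⟨hz, rfl⟩
    filter_upwards [hc0.continuousAt.eventually h3] with x hx
    exact FH.comp (u := v) (q := fun z : V => ((z, 0) : V × C2)) hx (by fun_prop)
  refine ⟨fun z => v (z, 0), hv4, fun z hz hre => ?_, fun z hz hone => ?_⟩
  · have hzA : z ∈ KA := by
      refine ⟨hz, ?_⟩
      show (ℓ z).re ≤ 1 - η₂ / 2
      linarith
    obtain ⟨c, hc, hvc⟩ := hv2 (z, 0) ⟨hzA, rfl⟩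
    have hmem : sh ((z, 0) : V × C2) c ∈ cthickening τ K ×ˢ closedBall (0 : C2) 1 := by
      refine ⟨self_subset_cthickening _ hz, ?_⟩
      simpa [sh] using hc.le
    simp only
    rw [hvc]
    refine hnear r hr hrr₂ z hz c hc.le _ ?_ ?_
    · exact (hu1.self_of_nhdsSet _ hmem).1.self_of_nhds
    · have h1 := cl_mono D (min_le_right δ 1) (hu2 _ hmem)
      simpa [sh] using h1
  · have hzB : z ∈ KB := by
      refine ⟨hz, ?_⟩
      show 1 - η₂ ≤ (ℓ z).re
      rw [hone, Complex.one_re]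
      linarith
    obtain ⟨c, hc, hvc⟩ := hv3 (z, 0) ⟨hzB, rfl⟩
    have hs0 : s z = 1 := by
      rw [hs]
      simp [hone]
    simp only
    rw [hvc]
    simp [hu', hc', sh, hs0]

end Vale.Agent.P290.R2.H455
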