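import Vale.Agent.P290.R2.H455.Ham
import Vale.Agent.P290.R2.H762.Vol

/-! Volume preserving maps from large polydiscs to fibres with maps to Riemann surfaces. -/

open Set Filter Metric
open scoped Manifold ContDiff Topology

namespace Vale.Agent.P290.R2.H455

open Vale.Agent.P290 Vale.Agent.P290.H805 Vale.Agent.P290.R2.H596

theorem md_of_holC {X C : Type} [TopologicalSpace X] [ChartedSpace C2 X] [TopologicalSpace C]
    [ChartedSpace ℂ C] {π : X → C} {x : X} (h : All.HolC π x) :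
    MDifferentiableAt 𝓘(ℂ, C2) 𝓘(ℂ) π x := by
  rw [mdifferentiableAt_iff]
  refine ⟨h.1, ?_⟩
  simp only [writtenInExtChartAt, mfld_simps, differentiableWithinAt_univ]
  exact h.2

theorem fderiv_ne {X C : Type} [TopologicalSpace X] [ChartedSpace C2 X] [TopologicalSpace C]
    [ChartedSpace ℂ C] {π : X → C} {x : X} (h : All.HolC π x) (hcr : ¬ All.Critical π x) :
    fderiv ℂ (hloc π (chartAt ℂ (π x)) (chartAt C2 x)) (chartAt C2 x x) ≠ 0 := by
  intro h0
  apply hcr
  rintro e t y rfl rfl rfl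
  have hd : DifferentiableAt ℂ (hloc π (chartAt ℂ (π x)) (chartAt C2 x)) (chartAt C2 x x) := h.2
  have h1 := hd.hasFDerivAt
  rw [h0] at h1
  constructor
  · have h2 : HasDerivAt (fun s : ℂ => ((s, (chartAt C2 x x).2) : C2)) E1 (chartAt C2 x x).1 :=
      (hasDerivAt_id _).prodMk (hasDerivAt_const _ _)
    have h3 := HasFDerivAt.comp_hasDerivAt (l := hloc π (chartAt ℂ (π x)) (chartAt C2 x))
      (f := fun s : ℂ => ((s, (chartAt C2 x x).2) : C2)) (chartAt C2 x x).1 h1 h2
    exact h3.deriv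
  · have h2 : HasDerivAt (fun s : ℂ => (((chartAt C2 x x).1, s) : C2)) E2 (chartAt C2 x x).2 :=
      (hasDerivAt_const _ _).prodMk (hasDerivAt_id _)
    have h3 := HasFDerivAt.comp_hasDerivAt (l := hloc π (chartAt ℂ (π x)) (chartAt C2 x))
      (f := fun s : ℂ => (((chartAt C2 x x).1, s) : C2)) (chartAt C2 x x).2 h1 h2
    exact h3.deriv

theorem symExist : StSymExist := by
  intro T E _ _ F vol hvol t₀ hT2 hcomp x hex R hR
  obtain ⟨C, π, hπ, hcr⟩ := hex
  have i1 : IsManifold 𝓘(ℂ) ω C.C := C.manifold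
  have i2 : T2Space C.C := C.t2
  have i3 : IsManifold 𝓘(ℂ) 1 C.C := IsManifold.of_le (n := ω) le_top
  have i4 : IsManifold 𝓘(ℂ, C2) 1 (Fib F t₀) := IsManifold.of_le (n := ω) le_top
  have hmd : MDifferentiable 𝓘(ℂ, C2) 𝓘(ℂ) π := fun y => md_of_holC (hπ y)
  obtain ⟨g, hg0, hg⟩ := exists_symp (H762.volForm hvol t₀) hmd x (fderiv_ne (hπ x) hcr) hR
  refine ⟨fun z => (g z).1, by simp only [hg0], fun y hy => ?_⟩
  obtain ⟨h1, h2⟩ := hg y hy
  refine ⟨⟨Eventually.of_forall fun z => (g z).prop,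
    ContinuousAt.comp (g := Fib.val) (f := g) continuous_val.continuousAt h1.continuousAt, ?_⟩, ?_⟩
  · exact ((mdifferentiableAt_atlas (I := 𝓘(ℂ, C2)) (chart_mem_atlas C2 (g y))
      (mem_chart_source C2 (g y))).comp y h1).differentiableAt
  · have h4 := H762.volForm_coef hvol t₀ (g y) (w := fibChart F t₀ (g y) (g y))
      ((fibChart F t₀ (g y)).map_source (F.mem _))
    rw [chartAt_fib, h4] at h2
    exact h2

end Vale.Agent.P290.R2.H455
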