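import Vale.Agent.P290.R2.H596.Spec

/-! Coordinates along a holomorphic map into a fibre, one of the charts being given. -/

open Set Filter Metric
open scoped Topology NNReal ContDiff

namespace Vale.Agent.P290.R2.H455

open Vale.Agent.P290 Vale.Agent.P290.All Vale.Agent.P290.K Vale.Agent.P290.H580
open Vale.Agent.P290.H805 Vale.Agent.P290.R2.H596

variable {T E : Type} [TopologicalSpace T] [TopologicalSpace E] {F : Family T E}
variable {V : Type} [NormedAddCommGroup V] [NormedSpace ℂ V] {t₀ : T}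

/-- coordinates along a holomorphic map near a compact convex set, which use the given chart near
a given compact subset -/
theorem exists_tubeY [FiniteDimensional ℂ V] {K : Set V} (hK : Good K) {u₀ : V → E}
    (hu : ∀ᶠ z in 𝓝ˢ K, FH F t₀ u₀ z) (y : E) {K' : Set V} (hK' : IsCompact K') (hKK : K' ⊆ K)
    (hy : ∀ z ∈ K', u₀ z ∈ (F.triv y).source) :
    ∃ (D : Tube F V t₀) (j₀ : D.J), D.u₀ = u₀ ∧ D.x j₀ = y ∧ K ⊆ ⋃ j, interior (D.N j) ∧
      K' ⊆ interior (D.N j₀) := by
  classical
  have : ProperSpace V := FiniteDimensional.proper ℂ V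
  obtain ⟨R, hRo, hKR, hR⟩ := mem_nhdsSet_iff_exists.1 hu
  have hR' : ∀ z ∈ R, FH F t₀ u₀ z := fun z hz => hR hz
  have huc : ContinuousOn u₀ R := fun z hz => (hR' z hz).2.1.continuousWithinAt
  -- the charts
  set X : Option V → E := fun a => a.elim y u₀ with hX
  -- the open sets
  set O : Option V → Set V := fun a => R ∩ u₀ ⁻¹' (F.triv (X a)).source with hO
  have hOo : ∀ a, IsOpen (O a) := fun a => huc.isOpen_inter_preimage hRo (F.triv (X a)).open_source
  have hself : ∀ a ∈ R, a ∈ O (some a) := fun a ha => ⟨ha, F.mem _⟩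
  have htriv : ∀ a, ∀ z ∈ O a, F.triv (X a) (u₀ z) = (t₀, (F.triv (X a) (u₀ z)).2) := by
    intro a z hz
    rw [F.mk_eq _ hz.2, (hR' z hz.1).1.self_of_nhds]
  have hdm : ∀ a b, ∀ z ∈ O a, z ∈ O b → Dm F (X a) (X b) t₀ (F.triv (X a) (u₀ z)).2 := by
    intro a b z ha hb
    refine ⟨?_, ?_⟩
    · rw [← htriv a z ha]; exact (F.triv (X a)).map_source ha.2
    · rw [← htriv a z ha, (F.triv (X a)).left_inv ha.2]; exact hb.2
  have htr : ∀ a b, ∀ z ∈ O a, z ∈ O b →
      tr F (X a) (X b) t₀ (F.triv (X a) (u₀ z)).2 = (F.triv (X b) (u₀ z)).2 := by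
    intro a b z ha hb
    rw [tr, ← htriv a z ha, (F.triv (X a)).left_inv ha.2]
  obtain ⟨θ, hθ⟩ := hK.cousinGL O hOo (fun z hz => mem_iUnion.2 ⟨some z, hself z (hKR hz)⟩)
    (fun a b z => fderiv ℂ (tr F (X a) (X b) t₀) (F.triv (X a) (u₀ z)).2)
    (fun a b z hz => by
      have h1 := hdm a b z hz.1 hz.2
      refine ⟨?_, h1.det_ne⟩
      have h2 : DifferentiableAt ℂ (fderiv ℂ (tr F (X a) (X b) t₀))
          (F.triv (X a) (u₀ z)).2 :=
        (h1.contDiffAt.fderiv_right (m := 1) (by simp)).differentiableAt (by simp)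
      exact DifferentiableAt.comp (g := fderiv ℂ (tr F (X a) (X b) t₀))
        (f := fun z => (F.triv (X a) (u₀ z)).2) z h2 ((hR' z hz.1.1).diff hz.1.2))
    (fun a b c z hz => by
      have h1 := (hdm a b z hz.1.1 hz.1.2).fderiv_comp (hdm a c z hz.1.1 hz.2)
      rw [htr a b z hz.1.1 hz.1.2] at h1
      exact h1)
  obtain ⟨R₁, hR₁o, hKR₁, hR₁⟩ := mem_nhdsSet_iff_exists.1 hθ
  have hR₁' : ∀ z ∈ R₁, ∀ a, z ∈ O a → DifferentiableAt ℂ (θ a) z ∧ (θ a z).det ≠ 0 ∧
      ∀ b, z ∈ O b → θ b z =
        (fderiv ℂ (tr F (X a) (X b) t₀) (F.triv (X a) (u₀ z)).2).comp (θ a z) :=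
    fun z hz => hR₁ hz
  -- the compact cover
  have hball : ∀ z ∈ K, ∃ s > 0, closedBall z s ⊆ O (some z) ∩ R₁ := by
    intro z hz
    obtain ⟨s, hs, h⟩ := Metric.nhds_basis_closedBall.mem_iff.1
      (((hOo (some z)).inter hR₁o).mem_nhds ⟨hself z (hKR hz), hKR₁ hz⟩)
    exact ⟨s, hs, h⟩
  choose! s hs hsub using hball
  obtain ⟨J, hJK, hcov⟩ := hK.1.elim_nhds_subcover (fun z => ball z (s z))
    (fun z hz => ball_mem_nhds z (hs z hz))
  -- the given chart
  obtain ⟨τ, hτ, hτK⟩ := hK'.exists_cthickening_subset_open ((hOo none).inter hR₁o)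
    (fun z hz => ⟨⟨hKR (hKK hz), hy z hz⟩, hKR₁ (hKK hz)⟩)
  set N : Option J → Set V := fun o => o.elim (cthickening τ K') (fun j => closedBall j.1 (s j.1))
    with hN
  set Oo : Option J → Set V := fun o => O (o.map Subtype.val) ∩ R₁ with hOo'
  refine ⟨{ u₀ := u₀, J := Option J, finite := inferInstance, x := fun o => X (o.map Subtype.val),
            O := Oo, N := N
            isOpen := fun o => (hOo _).inter hR₁o
            compact := fun o => ?_
            sub := fun o => ?_
            hol := fun o z hz => hR' z hz.1.1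
            src := fun o z hz => hz.1.2
            η := fun o z => θ (o.map Subtype.val) z
            ζ := fun o z => (θ (o.map Subtype.val) z).inverse
            η_diff := fun o z hz => (hR₁' z hz.2 _ hz.1).1
            ζ_diff := fun o z hz => ?_
            ζη := fun o z hz v => ?_
            ηζ := fun o z hz v => ?_
            trans := fun i j z hi hj v => ?_ }, none, rfl, rfl, ?_, ?_⟩
  · cases o with
    | none => exact hK'.cthickening
    | some j => exact isCompact_closedBall _ _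
  · cases o with
    | none => exact hτK
    | some j => exact hsub j.1 (hJK j.1 j.2)
  · obtain ⟨h1, h2, -⟩ := hR₁' z hz.2 _ hz.1
    have h3 : ContDiffAt ℂ 1 ContinuousLinearMap.inverse (θ (o.map Subtype.val) z) := by
      have := contDiffAt_map_inverse (𝕜 := ℂ) (n := 1)
        ((θ (o.map Subtype.val) z).toContinuousLinearEquivOfDetNeZero h2)
      rwa [ContinuousLinearMap.coe_toContinuousLinearEquivOfDetNeZero] at this
    exact DifferentiableAt.comp (g := ContinuousLinearMap.inverse)
      (f := fun z => θ (o.map Subtype.val) z) z (h3.differentiableAt one_ne_zero) h1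
  · obtain ⟨h1, h2, -⟩ := hR₁' z hz.2 _ hz.1
    have h3 : (θ (o.map Subtype.val) z).inverse =
        (((θ (o.map Subtype.val) z).toContinuousLinearEquivOfDetNeZero h2).symm : C2 →L[ℂ] C2) := by
      rw [← ContinuousLinearMap.inverse_equiv,
        ContinuousLinearMap.coe_toContinuousLinearEquivOfDetNeZero]
    rw [h3]
    exact ((θ (o.map Subtype.val) z).toContinuousLinearEquivOfDetNeZero h2).symm_apply_apply v
  · obtain ⟨h1, h2, -⟩ := hR₁' z hz.2 _ hz.1
    have h3 : (θ (o.map Subtype.val) z).inverse =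
        (((θ (o.map Subtype.val) z).toContinuousLinearEquivOfDetNeZero h2).symm : C2 →L[ℂ] C2) := by
      rw [← ContinuousLinearMap.inverse_equiv,
        ContinuousLinearMap.coe_toContinuousLinearEquivOfDetNeZero]
    rw [h3]
    exact ((θ (o.map Subtype.val) z).toContinuousLinearEquivOfDetNeZero h2).apply_symm_apply v
  · obtain ⟨-, -, h1⟩ := hR₁' z hi.2 _ hi.1
    rw [h1 _ hj.1]
    rfl
  · intro z hz
    obtain ⟨i, hi, hzi⟩ := mem_iUnion₂.1 (hcov hz)
    exact mem_iUnion.2 ⟨some ⟨i, hi⟩, interior_maximal ball_subset_closedBall isOpen_ball hzi⟩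
  · exact (self_subset_thickening hτ K').trans
      (interior_maximal (thickening_subset_cthickening τ K') isOpen_thickening)

end Vale.Agent.P290.R2.H455
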